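import Vale.Agent.Lib.P243.helper23.CalcCore

open Vale.Agent.Lib.P243.helper23

namespace Vale.Agent.Lib.P243.helper20

theorem phi_zero : phi 0 = 0 := by
  simp [phi]

theorem phi_one : phi 1 = 1 := by
  simp [phi]; norm_num

/-- `phi` in terms of the square root: `phi b = 3 t^2 - 2 t^3` with `t = sqrt b`. -/
theorem phi_eq_sqrt (b : ℝ) (hb : 0 ≤ b) :
    phi b = 3 * (Real.sqrt b) ^ 2 - 2 * (Real.sqrt b) ^ 3 := by
  have h : Real.sqrt b ^ 2 = b := Real.sq_sqrt hb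
  unfold phi
  have : Real.sqrt b ^ 3 = b * Real.sqrt b := by
    calc Real.sqrt b ^ 3 = Real.sqrt b ^ 2 * Real.sqrt b := by ring
      _ = b * Real.sqrt b := by rw [h]
  rw [h, this]; ring

theorem phi_strictMonoOn : StrictMonoOn phi (Set.Icc 0 1) := by
  intro a ha b hb hab
  have hs0 : 0 ≤ Real.sqrt a := Real.sqrt_nonneg a
  have hst : Real.sqrt a < Real.sqrt b := Real.sqrt_lt_sqrt ha.1 hab
  have ht1 : Real.sqrt b ≤ 1 := by
    rw [← Real.sqrt_one]; exact Real.sqrt_le_sqrt hb.2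
  rw [phi_eq_sqrt a ha.1, phi_eq_sqrt b hb.1]
  generalize Real.sqrt a = s at *
  generalize Real.sqrt b = t at *
  have h1 : 0 < t - s := by linarith
  have h2 : 0 < t * (1 - s) := mul_pos (by linarith) (by linarith)
  have h3 : 0 ≤ s * (1 - t) := mul_nonneg hs0 (by linarith)
  have h4 : 0 ≤ t * (1 - t) := mul_nonneg (by linarith) (by linarith)
  have h5 : 0 ≤ s * (1 - s) := mul_nonneg hs0 (by linarith)
  have key : 0 < (t - s) * (3 * (t + s) - 2 * (t ^ 2 + t * s + s ^ 2)) := by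
    apply mul_pos h1
    nlinarith
  nlinarith

theorem phi_monotoneOn : MonotoneOn phi (Set.Icc 0 1) :=
  phi_strictMonoOn.monotoneOn

theorem phi_nonneg (b : ℝ) (h0 : 0 ≤ b) (h1 : b ≤ 1) : 0 ≤ phi b := by
  have := phi_monotoneOn (Set.mem_Icc.mpr ⟨le_refl 0, zero_le_one⟩) (Set.mem_Icc.mpr ⟨h0, h1⟩) h0
  rwa [phi_zero] at this

theorem phi_le_one (b : ℝ) (h0 : 0 ≤ b) (h1 : b ≤ 1) : phi b ≤ 1 := by
  have := phi_monotoneOn (Set.mem_Icc.mpr ⟨h0, h1⟩) (Set.mem_Icc.mpr ⟨zero_le_one, le_refl 1⟩) h1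
  rwa [phi_one] at this

/-- Rescaling: `3 x - 2 x sqrt x / sqrt J = J * phi (x / J)`. -/
theorem scaled_phi (J : ℝ) (hJ : 0 < J) (x : ℝ) :
    3 * x - 2 * x * Real.sqrt x / Real.sqrt J = J * phi (x / J) := by
  have hsJ : 0 < Real.sqrt J := Real.sqrt_pos.mpr hJ
  have hJJ : Real.sqrt J * Real.sqrt J = J := Real.mul_self_sqrt hJ.le
  unfold phi
  rw [Real.sqrt_div' x hJ.le]
  field_simp

/-- Core inequality: if the `phi`-values of `J` numbers in `[0,1]` sum to at least one, then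
their sum `R` satisfies `1 ≤ 3 R - 2 R sqrt R / sqrt J`. -/
theorem phi_sum_core (J : ℕ) (hJ : 0 < J) (b : Fin J → ℝ) (h0 : ∀ j, 0 ≤ b j)
    (hsum : 1 ≤ ∑ j, phi (b j)) :
    1 ≤ 3 * (∑ j, b j) - 2 * (∑ j, b j) * Real.sqrt (∑ j, b j) / Real.sqrt J := by
  have hJr : (0 : ℝ) < J := by exact_mod_cast hJ
  have hsJ : 0 < Real.sqrt J := Real.sqrt_pos.mpr hJr
  set R : ℝ := ∑ j, b j with hR
  have hR0 : 0 ≤ R := Finset.sum_nonneg fun j _ => h0 j
  set S1 : ℝ := ∑ j, Real.sqrt (b j) with hS1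
  set S3 : ℝ := ∑ j, b j * Real.sqrt (b j) with hS3
  have hS10 : 0 ≤ S1 := Finset.sum_nonneg fun j _ => Real.sqrt_nonneg _
  have hS30 : 0 ≤ S3 := Finset.sum_nonneg fun j _ => mul_nonneg (h0 j) (Real.sqrt_nonneg _)
  -- Cauchy-Schwarz twice
  have hCS1 : R ^ 2 ≤ S3 * S1 := by
    apply Finset.sum_sq_le_sum_mul_sum_of_sq_le_mul
    · intro i _; exact mul_nonneg (h0 i) (Real.sqrt_nonneg _)
    · intro i _; exact Real.sqrt_nonneg _
    · intro i _
      have := Real.mul_self_sqrt (h0 i)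
      nlinarith
  have hCS2 : S1 ^ 2 ≤ J * R := by
    have h := @sq_sum_le_card_mul_sum_sq (Fin J) ℝ _ _ _ _ Finset.univ (fun j => Real.sqrt (b j))
    simp only [Finset.card_univ, Fintype.card_fin] at h
    have e : ∑ j, Real.sqrt (b j) ^ 2 = R := by
      rw [hR]; apply Finset.sum_congr rfl; intro j _; exact Real.sq_sqrt (h0 j)
    rw [e] at h
    exact h
  have hS1le : S1 ≤ Real.sqrt J * Real.sqrt R := by
    rw [← Real.sqrt_mul hJr.le]
    exact Real.le_sqrt_of_sq_le hCS2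
  have hsum' : ∑ j, phi (b j) = 3 * R - 2 * S3 := by
    rw [hR, hS3, Finset.mul_sum, Finset.mul_sum, ← Finset.sum_sub_distrib]
    apply Finset.sum_congr rfl; intro j _; unfold phi; ring
  have hkey : R * Real.sqrt R ≤ S3 * Real.sqrt J := by
    rcases eq_or_lt_of_le hR0 with hR00 | hRpos
    · rw [← hR00]; simp; exact mul_nonneg hS30 hsJ.le
    · have hsR : 0 < Real.sqrt R := Real.sqrt_pos.mpr hRpos
      have hRR : Real.sqrt R * Real.sqrt R = R := Real.mul_self_sqrt hR0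
      have h1 : R ^ 2 ≤ S3 * (Real.sqrt J * Real.sqrt R) :=
        hCS1.trans (mul_le_mul_of_nonneg_left hS1le hS30)
      have h2 : (R * Real.sqrt R) * Real.sqrt R ≤ (S3 * Real.sqrt J) * Real.sqrt R := by
        calc (R * Real.sqrt R) * Real.sqrt R = R ^ 2 := by rw [mul_assoc, hRR]; ring
          _ ≤ S3 * (Real.sqrt J * Real.sqrt R) := h1
          _ = (S3 * Real.sqrt J) * Real.sqrt R := by ring
      exact le_of_mul_le_mul_right h2 hsR
  have hdiv : R * Real.sqrt R / Real.sqrt J ≤ S3 := by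
    rw [div_le_iff₀ hsJ]; exact hkey
  have : 2 * R * Real.sqrt R / Real.sqrt J = 2 * (R * Real.sqrt R / Real.sqrt J) := by ring
  rw [this]
  linarith [hsum' ▸ hsum]

/-- (T1) -/
theorem phi_sum_main (J : ℕ) (hJ : 0 < J) (b : Fin J → ℝ) (h0 : ∀ j, 0 ≤ b j)
    (h1 : ∀ j, b j ≤ 1) (hsum : 1 ≤ ∑ j, phi (b j)) (r : ℝ) (hr : ∑ j, b j ≤ r)
    (hr1 : r ≤ 1) : 1 ≤ 3 * r - 2 * r * Real.sqrt r / Real.sqrt J := by
  have _h1 := h1
  have hJr : (0 : ℝ) < J := by exact_mod_cast hJ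
  have hJ1 : (1 : ℝ) ≤ J := by exact_mod_cast hJ
  have hR0 : 0 ≤ ∑ j, b j := Finset.sum_nonneg fun j _ => h0 j
  have hcore := phi_sum_core J hJ b h0 hsum
  rw [scaled_phi J hJr] at hcore ⊢
  have hmono : phi ((∑ j, b j) / J) ≤ phi (r / J) := by
    apply phi_monotoneOn
    · exact ⟨div_nonneg hR0 hJr.le, (div_le_one hJr).mpr (by linarith)⟩
    · exact ⟨div_nonneg (by linarith) hJr.le, (div_le_one hJr).mpr (by linarith)⟩
    · exact div_le_div_of_nonneg_right hr hJr.le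
  exact hcore.trans (mul_le_mul_of_nonneg_left hmono hJr.le)

/-- (T2) -/
theorem phi_sum_two (b : Fin 2 → ℝ) (h0 : ∀ j, 0 ≤ b j) (h1 : ∀ j, b j ≤ 1)
    (hsum : 1 ≤ ∑ j, phi (b j)) : 1 / 2 ≤ ∑ j, b j := by
  have _h1 := h1
  have hR0 : 0 ≤ ∑ j, b j := Finset.sum_nonneg fun j _ => h0 j
  have hcore := phi_sum_core 2 (by norm_num) b h0 hsum
  rw [scaled_phi ((2 : ℕ) : ℝ) (by norm_num)] at hcore
  by_contra hlt
  rw [not_le] at hlt
  have hquarter : phi (1 / 4) = 1 / 2 := by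
    unfold phi
    have : Real.sqrt (1 / 4) = 1 / 2 := by
      rw [show (1 / 4 : ℝ) = (1 / 2) ^ 2 by norm_num]
      exact Real.sqrt_sq (by norm_num)
    rw [this]; norm_num
  have hlt' : phi ((∑ j, b j) / ((2 : ℕ) : ℝ)) < phi (1 / 4) := by
    apply phi_strictMonoOn
    · refine ⟨div_nonneg hR0 (by norm_num), ?_⟩
      push_cast; linarith
    · constructor <;> norm_num
    · push_cast; linarith
  rw [hquarter] at hlt'
  push_cast at hcore hlt'
  linarith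

/-- (T3) -/
theorem phi_sum_three (b : Fin 3 → ℝ) (h0 : ∀ j, 0 ≤ b j) (h1 : ∀ j, b j ≤ 1)
    (hsum : 1 ≤ ∑ j, phi (b j)) : 4 / 9 ≤ ∑ j, b j := by
  have _h1 := h1
  have hR0 : 0 ≤ ∑ j, b j := Finset.sum_nonneg fun j _ => h0 j
  have hcore := phi_sum_core 3 (by norm_num) b h0 hsum
  rw [scaled_phi ((3 : ℕ) : ℝ) (by norm_num)] at hcore
  by_contra hlt
  rw [not_le] at hlt
  have hval : phi (4 / 27) < 1 / 3 := by
    unfold phi
    have : (3 / 8 : ℝ) < Real.sqrt (4 / 27) := by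
      rw [show (3 / 8 : ℝ) = Real.sqrt ((3 / 8) ^ 2) by rw [Real.sqrt_sq (by norm_num)]]
      exact Real.sqrt_lt_sqrt (by norm_num) (by norm_num)
    nlinarith
  have hle' : phi ((∑ j, b j) / ((3 : ℕ) : ℝ)) ≤ phi (4 / 27) := by
    apply phi_monotoneOn
    · refine ⟨div_nonneg hR0 (by norm_num), ?_⟩
      push_cast; linarith
    · constructor <;> norm_num
    · push_cast; linarith
  push_cast at hcore hle'
  linarith

/-- (T4) -/
theorem phi_sum_general (J : ℕ) (hJ : 0 < J) (b : Fin J → ℝ) (h0 : ∀ j, 0 ≤ b j)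
    (h1 : ∀ j, b j ≤ 1) (hsum : 1 ≤ ∑ j, phi (b j)) :
    1 / 3 + 2 / (9 * Real.sqrt (3 * J)) ≤ ∑ j, b j := by
  have _h1 := h1
  have hJr : (0 : ℝ) < J := by exact_mod_cast hJ
  have hsJ : 0 < Real.sqrt J := Real.sqrt_pos.mpr hJr
  have hR0 : 0 ≤ ∑ j, b j := Finset.sum_nonneg fun j _ => h0 j
  have hcore := phi_sum_core J hJ b h0 hsum
  set R : ℝ := ∑ j, b j with hR
  have hs3 : 0 < Real.sqrt 3 := Real.sqrt_pos.mpr (by norm_num)
  have h33 : Real.sqrt 3 * Real.sqrt 3 = 3 := Real.mul_self_sqrt (by norm_num)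
  have hterm0 : 0 ≤ 2 * R * Real.sqrt R / Real.sqrt J :=
    div_nonneg (mul_nonneg (mul_nonneg (by norm_num) hR0) (Real.sqrt_nonneg _)) hsJ.le
  have hR3 : 1 / 3 ≤ R := by linarith
  have hsR : 1 / Real.sqrt 3 ≤ Real.sqrt R := by
    rw [← Real.sqrt_one, ← Real.sqrt_div' 1 (by norm_num : (0:ℝ) ≤ 3)]
    exact Real.sqrt_le_sqrt hR3
  have hprod : (1 / 3) * (1 / Real.sqrt 3) ≤ R * Real.sqrt R :=
    mul_le_mul hR3 hsR (by positivity) hR0
  have hfrac : 2 / (9 * Real.sqrt (3 * J)) = (2 / 3) * ((1 / 3) * (1 / Real.sqrt 3)) / Real.sqrt J := by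
    rw [Real.sqrt_mul (by norm_num : (0:ℝ) ≤ 3)]
    field_simp
    ring
  have hle : (2 / 3) * ((1 / 3) * (1 / Real.sqrt 3)) / Real.sqrt J
      ≤ (2 / 3) * (R * Real.sqrt R) / Real.sqrt J :=
    div_le_div_of_nonneg_right (mul_le_mul_of_nonneg_left hprod (by norm_num)) hsJ.le
  have e : 2 * R * Real.sqrt R / Real.sqrt J = 3 * ((2 / 3) * (R * Real.sqrt R) / Real.sqrt J) := by
    ring
  rw [hfrac]
  linarith

end Vale.Agent.Lib.P243.helper20
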